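import Vale.Agent.Lib.PNT.Wiener

/-!
# The prime number theorem (also in arithmetic progressions)

Main results (namespace `Vale.Agent.PNT`):

* `tendsto_sum_residueClass_div` : the prime number theorem in arithmetic progressions for the
  von Mangoldt function
* `tendsto_theta_residueClass_div` : the same, for the sum of `log p` over primes
* `tendsto_psi_div`, `tendsto_theta_div`, `tendsto_log_lcmUpto_div`, `tendsto_primeCounting`
-/

open MeasureTheory Filter Topology Set
open ArithmeticFunction ArithmeticFunction.vonMangoldt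
open scoped Real

namespace Vale.Agent.PNT

theorem psi_eq_sum_Icc_one (x : ℝ) :
    Chebyshev.psi x = ∑ n ∈ Finset.Icc 1 ⌊x⌋₊, vonMangoldt n := by
  rw [Chebyshev.psi]
  rfl

/-- The prime number theorem in arithmetic progressions, for the von Mangoldt function. -/
theorem tendsto_sum_residueClass_div {q : ℕ} [NeZero q] {a : ZMod q} (ha : IsUnit a) :
    Tendsto (fun x : ℝ => (∑ k ∈ Finset.Icc 1 ⌊x⌋₊, residueClass a k) / x) atTop
      (𝓝 ((q.totient : ℝ)⁻¹)) := by
  refine wiener_ikehara (residueClass a) (residueClass_nonneg a) (C := Real.log 4 + 4) ?_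
    (continuousOn_LFunctionResidueClassAux a) ?_
  · intro x hx
    refine le_trans ?_ (Chebyshev.psi_le_const_mul_self (by linarith))
    rw [psi_eq_sum_Icc_one]
    exact Finset.sum_le_sum fun k _ => residueClass_le a k
  · intro s hs
    have h := eqOn_LFunctionResidueClassAux ha (show s ∈ {s : ℂ | 1 < s.re} from hs)
    simp only at h
    rw [h]
    push_cast
    ring

theorem tendsto_psi_div : Tendsto (fun x : ℝ => Chebyshev.psi x / x) atTop (𝓝 1) := by
  have h := tendsto_sum_residueClass_div (q := 1) (a := 1) isUnit_one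
  simp only [Nat.totient_one, Nat.cast_one, inv_one] at h
  refine h.congr fun x => ?_
  rw [psi_eq_sum_Icc_one]
  congr 1
  refine Finset.sum_congr rfl fun k _ => ?_
  have : ((k : ZMod 1) = 1) := Subsingleton.elim _ _
  simp [residueClass, indicator, this]

theorem tendsto_psi_sub_theta_div :
    Tendsto (fun x : ℝ => (Chebyshev.psi x - Chebyshev.theta x) / x) atTop (𝓝 0) := by
  have h1 := Chebyshev.isBigO_psi_sub_theta_sqrt
  have h2 : (fun x : ℝ => √x) =o[atTop] fun x : ℝ => x := by
    refine (Asymptotics.isLittleO_iff_tendsto' ?_).2 ?_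
    · filter_upwards [eventually_gt_atTop 0] with x hx h
      exact absurd h hx.ne'
    · have h := (Real.tendsto_sqrt_atTop).inv_tendsto_atTop
      refine h.congr' ?_
      filter_upwards [eventually_gt_atTop 0] with x hx
      simp only [Pi.inv_apply]
      have hs : 0 < √x := Real.sqrt_pos.2 hx
      rw [inv_eq_one_div, div_eq_div_iff hs.ne' hx.ne', one_mul, Real.mul_self_sqrt hx.le]
  have h3 := (h1.trans_isLittleO h2).tendsto_div_nhds_zero
  simpa using h3

theorem tendsto_theta_div : Tendsto (fun x : ℝ => Chebyshev.theta x / x) atTop (𝓝 1) := by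
  have h := tendsto_psi_div.sub tendsto_psi_sub_theta_div
  rw [sub_zero] at h
  refine h.congr fun x => ?_
  ring

theorem tendsto_log_lcmUpto_div :
    Tendsto (fun n : ℕ => Real.log (Nat.lcmUpto n) / n) atTop (𝓝 1) := by
  have h := tendsto_psi_div.comp (tendsto_natCast_atTop_atTop (R := ℝ))
  refine h.congr fun n => ?_
  simp only [Function.comp]
  rw [Chebyshev.psi_eq_log_lcmUpto]

/-- The prime number theorem for the prime counting function. -/
theorem tendsto_primeCounting :
    Tendsto (fun x : ℝ => (Nat.primeCounting ⌊x⌋₊ : ℝ) * Real.log x / x) atTop (𝓝 1) := by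
  have h1 := Chebyshev.primeCounting_sub_theta_div_log_isBigO
  have h2 : (fun x : ℝ => x / Real.log x ^ 2) =o[atTop] fun x : ℝ => x / Real.log x := by
    refine (Asymptotics.isLittleO_iff_tendsto' ?_).2 ?_
    · filter_upwards [eventually_gt_atTop 1] with x hx h
      have := Real.log_pos hx
      have h' : x / Real.log x ≠ 0 := by positivity
      exact absurd h h'
    · refine (Real.tendsto_log_atTop.inv_tendsto_atTop).congr' ?_
      filter_upwards [eventually_gt_atTop 1] with x hx
      have := Real.log_pos hx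
      simp only [Pi.inv_apply]
      field_simp
  have h3 := (h1.trans_isLittleO h2).tendsto_div_nhds_zero
  have h4 := h3.add tendsto_theta_div
  rw [zero_add] at h4
  refine h4.congr' ?_
  filter_upwards [eventually_gt_atTop 1] with x hx
  have := Real.log_pos hx
  field_simp
  ring

/-- The prime number theorem in arithmetic progressions, for the sum of `log p`. -/
theorem tendsto_theta_residueClass_div {q : ℕ} [NeZero q] {a : ZMod q} (ha : IsUnit a) :
    Tendsto (fun x : ℝ =>
      (∑ p ∈ (Finset.Icc 1 ⌊x⌋₊).filter (fun p : ℕ => Nat.Prime p ∧ (p : ZMod q) = a), Real.log p) / x)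
      atTop (𝓝 ((q.totient : ℝ)⁻¹)) := by
  classical
  have key : ∀ x : ℝ, (∑ k ∈ Finset.Icc 1 ⌊x⌋₊, residueClass a k)
      - (∑ p ∈ (Finset.Icc 1 ⌊x⌋₊).filter (fun p : ℕ => Nat.Prime p ∧ (p : ZMod q) = a), Real.log p)
      = ∑ k ∈ (Finset.Icc 1 ⌊x⌋₊).filter (fun k => ¬ k.Prime), residueClass a k := by
    intro x
    rw [← Finset.sum_filter_add_sum_filter_not (Finset.Icc 1 ⌊x⌋₊) (fun k => k.Prime)
      (fun k => residueClass a k)]
    have : (∑ k ∈ (Finset.Icc 1 ⌊x⌋₊).filter (fun k => k.Prime), residueClass a k)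
        = ∑ p ∈ (Finset.Icc 1 ⌊x⌋₊).filter (fun p : ℕ => Nat.Prime p ∧ (p : ZMod q) = a),
          Real.log p := by
      rw [← Finset.filter_filter, Finset.sum_filter (s := (Finset.Icc 1 ⌊x⌋₊).filter _)]
      refine Finset.sum_congr rfl fun p hp => ?_
      have hp' := (Finset.mem_filter.1 hp).2
      simp [residueClass, indicator, vonMangoldt_apply_prime hp']
    rw [this]
    ring
  have hle : ∀ x : ℝ, ∑ k ∈ (Finset.Icc 1 ⌊x⌋₊).filter (fun k => ¬ k.Prime), residueClass a k
      ≤ Chebyshev.psi x - Chebyshev.theta x := by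
    intro x
    rw [Chebyshev.psi_sub_theta_eq_sum_not_prime]
    exact Finset.sum_le_sum fun k _ => residueClass_le a k
  have hlim : Tendsto (fun x : ℝ =>
      (∑ k ∈ (Finset.Icc 1 ⌊x⌋₊).filter (fun k => ¬ k.Prime), residueClass a k) / x)
      atTop (𝓝 0) := by
    refine tendsto_of_tendsto_of_tendsto_of_le_of_le' tendsto_const_nhds
      tendsto_psi_sub_theta_div ?_ ?_
    · filter_upwards [eventually_gt_atTop 0] with x hx
      exact div_nonneg (Finset.sum_nonneg fun k _ => residueClass_nonneg a k) hx.le
    · filter_upwards [eventually_gt_atTop 0] with x hx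
      exact div_le_div_of_nonneg_right (hle x) hx.le
  have h := (tendsto_sum_residueClass_div ha).sub hlim
  rw [sub_zero] at h
  refine h.congr fun x => ?_
  rw [← key x]
  ring

end Vale.Agent.PNT
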