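import Vale.Agent.Lib.PNT.Tauber

/-!
# The Tauberian step: from averages against the Fejer kernel to pointwise limits
-/

open MeasureTheory Filter Topology Set
open scoped Real

namespace Vale.Agent.PNT

theorem integral_K_window (l x d : ℝ) (hl : 0 < l) (hd : 0 ≤ d) :
    ∫ t in Icc (x - d) (x + d), K (l * (x - t)) = l⁻¹ * ∫ u in Icc (-(l * d)) (l * d), K u := by
  rw [integral_Icc_eq_integral_Ioc, integral_Icc_eq_integral_Ioc,
    ← intervalIntegral.integral_of_le (by linarith),
    ← intervalIntegral.integral_of_le (by nlinarith [mul_nonneg hl.le hd])]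
  have h := intervalIntegral.integral_comp_sub_mul (a := x - d) (b := x + d) (f := K) (c := l)
    hl.ne' (l * x)
  have e : ∀ t : ℝ, l * (x - t) = l * x - l * t := fun t => by ring
  simp_rw [e]
  rw [h, smul_eq_mul]
  congr 2 <;> ring

theorem integral_K_full (l x : ℝ) (hl : 0 < l) :
    ∫ t, K (l * (x - t)) = l⁻¹ * ∫ u, K u := by
  rw [integral_sub_left_eq_self (fun t => K (l * t)) volume x,
    Measure.integral_comp_mul_left (fun t => K t) l, smul_eq_mul, abs_of_pos (inv_pos.2 hl)]

theorem tendsto_integral_K_half (l : ℝ) (hl : 0 < l) :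
    Tendsto (fun x : ℝ => ∫ t in Ioi (0 : ℝ), K (l * (x - t))) atTop (𝓝 (l⁻¹ * ∫ u, K u)) := by
  have h1 : Integrable fun t : ℝ => K (l * t) := integrable_K.comp_mul_left' hl.ne'
  have h2 := (aecover_Iio (μ := (volume : Measure ℝ)) (b := fun x : ℝ => x)
    tendsto_id).integral_tendsto_of_countably_generated h1
  rw [Measure.integral_comp_mul_left (fun t => K t) l, smul_eq_mul,
    abs_of_pos (inv_pos.2 hl)] at h2
  refine h2.congr fun x => ?_
  rw [← integral_indicator measurableSet_Iio, ← integral_indicator measurableSet_Ioi,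
    ← integral_sub_left_eq_self _ volume x]
  refine integral_congr_ae (ae_of_all _ fun t => ?_)
  simp only [indicator, mem_Iio, mem_Ioi]
  by_cases ht : 0 < t
  · rw [if_pos ht, if_pos (by linarith)]
  · rw [if_neg ht, if_neg (by linarith)]

section main

variable {b : ℝ → ℝ} {A M : ℝ}

theorem integrable_bK (hbm : Measurable b) (hb0 : ∀ t, 0 ≤ t → 0 ≤ b t)
    (hbM : ∀ t, 0 ≤ t → b t ≤ M) (l x : ℝ) (hl : 0 < l) :
    IntegrableOn (fun t : ℝ => b t * K (l * (x - t))) (Ioi 0) := by
  have hKint := (integrable_K_shift l x hl).restrict (s := Ioi (0 : ℝ))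
  refine Integrable.mono' (hKint.const_mul M) ?_ ?_
  · apply Measurable.aestronglyMeasurable
    have := measurable_K
    fun_prop
  · filter_upwards [ae_restrict_mem measurableSet_Ioi] with t ht
    have ht' : (0 : ℝ) < t := ht
    rw [Real.norm_eq_abs, abs_of_nonneg (mul_nonneg (hb0 t ht'.le) (K_nonneg _))]
    exact mul_le_mul_of_nonneg_right (hbM t ht'.le) (K_nonneg _)

theorem tendsto_bK (hbm : Measurable b) (hb0 : ∀ t, 0 ≤ t → 0 ≤ b t)
    (hbM : ∀ t, 0 ≤ t → b t ≤ M)
    {l : ℝ} (hl : 0 < l)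
    (hconv : Tendsto (fun x : ℝ => ∫ t in Ioi (0 : ℝ), (b t - A) * K (l * (x - t)))
      atTop (𝓝 0)) :
    Tendsto (fun x : ℝ => ∫ t in Ioi (0 : ℝ), b t * K (l * (x - t))) atTop
      (𝓝 (A * (l⁻¹ * ∫ u, K u))) := by
  have h := hconv.add ((tendsto_integral_K_half l hl).const_mul A)
  rw [zero_add] at h
  refine h.congr fun x => ?_
  rw [← integral_const_mul, ← integral_add]
  · refine integral_congr_ae (ae_of_all _ fun t => ?_)
    simp only
    ring
  · have h1 := integrable_bK hbm hb0 hbM l x hl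
    have h2 := ((integrable_K_shift l x hl).restrict (s := Ioi (0 : ℝ))).const_mul A
    refine (h1.sub h2).congr (ae_of_all _ fun t => ?_)
    simp only [Pi.sub_apply]
    ring
  · exact ((integrable_K_shift l x hl).restrict (s := Ioi (0 : ℝ))).const_mul A

theorem upper_bound (hbm : Measurable b) (hb0 : ∀ t, 0 ≤ t → 0 ≤ b t)
    (hbM : ∀ t, 0 ≤ t → b t ≤ M)
    (hmono : ∀ s t, 0 ≤ s → s ≤ t → b s * Real.exp s ≤ b t * Real.exp t)
    {l x d : ℝ} (hl : 0 < l) (hd : 0 < d) (hx : d < x) :
    b (x - d) * Real.exp (-(2 * d)) * (l⁻¹ * ∫ u in Icc (-(l * d)) (l * d), K u)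
      ≤ ∫ t in Ioi (0 : ℝ), b t * K (l * (x - t)) := by
  rw [← integral_K_window l x d hl hd.le, ← integral_const_mul]
  have hsub : Icc (x - d) (x + d) ⊆ Ioi (0 : ℝ) := fun t ht => by
    have := ht.1
    simp only [mem_Ioi]
    linarith
  have hint := integrable_bK hbm hb0 hbM l x hl
  calc ∫ t in Icc (x - d) (x + d), b (x - d) * Real.exp (-(2 * d)) * K (l * (x - t))
      ≤ ∫ t in Icc (x - d) (x + d), b t * K (l * (x - t)) := by
        refine setIntegral_mono_on ?_ (hint.mono_set hsub) measurableSet_Icc fun t ht => ?_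
        · exact ((integrable_K_shift l x hl).const_mul _).integrableOn
        · refine mul_le_mul_of_nonneg_right ?_ (K_nonneg _)
          have h1 := hmono (x - d) t (by linarith) ht.1
          have h2 : b (x - d) ≤ b t * Real.exp (t - (x - d)) := by
            rw [Real.exp_sub, ← mul_div_assoc, le_div_iff₀ (Real.exp_pos _)]
            exact h1
          have h3 : Real.exp (t - (x - d)) ≤ Real.exp (2 * d) :=
            Real.exp_le_exp.2 (by linarith [ht.2])
          have h4 : b (x - d) ≤ b t * Real.exp (2 * d) :=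
            h2.trans (mul_le_mul_of_nonneg_left h3 (hb0 t (hsub ht).le))
          rw [Real.exp_neg, ← div_eq_mul_inv, div_le_iff₀ (Real.exp_pos _)]
          exact h4
    _ ≤ ∫ t in Ioi (0 : ℝ), b t * K (l * (x - t)) := by
        refine setIntegral_mono_set hint ?_ hsub.eventuallyLE
        filter_upwards [ae_restrict_mem measurableSet_Ioi] with t ht
        exact mul_nonneg (hb0 t (le_of_lt ht)) (K_nonneg _)

theorem lower_bound (hbm : Measurable b) (hb0 : ∀ t, 0 ≤ t → 0 ≤ b t)
    (hbM : ∀ t, 0 ≤ t → b t ≤ M)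
    (hmono : ∀ s t, 0 ≤ s → s ≤ t → b s * Real.exp s ≤ b t * Real.exp t)
    {l x d : ℝ} (hl : 0 < l) (hd : 0 < d) (hx : d < x) :
    (∫ t in Ioi (0 : ℝ), b t * K (l * (x - t)))
      ≤ b (x + d) * Real.exp (2 * d) * (l⁻¹ * ∫ u in Icc (-(l * d)) (l * d), K u)
        + M * (l⁻¹ * ((∫ u, K u) - ∫ u in Icc (-(l * d)) (l * d), K u)) := by
  have hM0 : 0 ≤ M := (hb0 0 le_rfl).trans (hbM 0 le_rfl)
  rw [mul_sub, ← integral_K_window l x d hl hd.le, ← integral_K_full l x hl]
  have hK := integrable_K_shift l x hl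
  have hcompl : (∫ t, K (l * (x - t))) - ∫ t in Icc (x - d) (x + d), K (l * (x - t))
      = ∫ t in (Icc (x - d) (x + d))ᶜ, K (l * (x - t)) := by
    rw [← integral_add_compl (measurableSet_Icc (a := x - d) (b := x + d)) hK]
    ring
  rw [hcompl, ← integral_const_mul, ← integral_const_mul]
  have hint := integrable_bK hbm hb0 hbM l x hl
  have hsub : Icc (x - d) (x + d) ⊆ Ioi (0 : ℝ) := fun t ht => by
    have := ht.1
    simp only [mem_Ioi]
    linarith
  have hsplit : ∫ t in Ioi (0 : ℝ), b t * K (l * (x - t))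
      = (∫ t in Ioi (0 : ℝ) ∩ Icc (x - d) (x + d), b t * K (l * (x - t)))
        + ∫ t in Ioi (0 : ℝ) \ Icc (x - d) (x + d), b t * K (l * (x - t)) :=
    (integral_inter_add_sdiff measurableSet_Icc hint).symm
  rw [hsplit, inter_eq_self_of_subset_right hsub]
  refine add_le_add ?_ ?_
  · refine setIntegral_mono_on (hint.mono_set hsub) ?_ measurableSet_Icc fun t ht => ?_
    · exact (hK.const_mul _).integrableOn
    · refine mul_le_mul_of_nonneg_right ?_ (K_nonneg _)
      have h0 : 0 ≤ t := (hsub ht).le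
      have h1 := hmono t (x + d) h0 ht.2
      have h2 : b t ≤ b (x + d) * Real.exp (x + d - t) := by
        rw [Real.exp_sub, ← mul_div_assoc, le_div_iff₀ (Real.exp_pos _)]
        exact h1
      have h3 : Real.exp (x + d - t) ≤ Real.exp (2 * d) :=
        Real.exp_le_exp.2 (by linarith [ht.1])
      exact h2.trans (mul_le_mul_of_nonneg_left h3 (hb0 _ (by linarith)))
  · calc ∫ t in Ioi (0 : ℝ) \ Icc (x - d) (x + d), b t * K (l * (x - t))
        ≤ ∫ t in Ioi (0 : ℝ) \ Icc (x - d) (x + d), M * K (l * (x - t)) := by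
          refine setIntegral_mono_on (hint.mono_set sdiff_subset) ?_
            (measurableSet_Ioi.diff measurableSet_Icc) fun t ht => ?_
          · exact (hK.const_mul _).integrableOn
          · exact mul_le_mul_of_nonneg_right (hbM t (le_of_lt ht.1)) (K_nonneg _)
      _ ≤ ∫ t in (Icc (x - d) (x + d))ᶜ, M * K (l * (x - t)) := by
          refine setIntegral_mono_set (hK.const_mul _).integrableOn ?_ ?_
          · exact ae_of_all _ fun t => mul_nonneg hM0 (K_nonneg _)
          · exact LE.le.eventuallyLE fun t ht => ht.2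

theorem tendsto_of_conv (hbm : Measurable b) (hb0 : ∀ t, 0 ≤ t → 0 ≤ b t)
    (hbM : ∀ t, 0 ≤ t → b t ≤ M)
    (hmono : ∀ s t, 0 ≤ s → s ≤ t → b s * Real.exp s ≤ b t * Real.exp t)
    (hconv : ∀ l : ℝ, 0 < l →
      Tendsto (fun x : ℝ => ∫ t in Ioi (0 : ℝ), (b t - A) * K (l * (x - t))) atTop (𝓝 0)) :
    Tendsto b atTop (𝓝 A) := by
  set c : ℝ := ∫ u, K u with hc
  have hcpos : 0 < c := integral_K_pos
  -- J R = the window integral
  set J : ℝ → ℝ := fun R => ∫ u in Icc (-R) R, K u with hJ
  have hJlim : Tendsto J atTop (𝓝 c) := tendsto_integral_K_Icc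
  -- scale R = 1 / d, l = 1 / d ^ 2; use R → ∞, d = 1 / R, l = R ^ 2
  have hupper : ∀ R : ℝ, 0 < R →
      ∀ a : ℝ, Real.exp (2 / R) * (A * c / J R) < a → ∀ᶠ x in atTop, b x < a := by
    intro R hR a ha
    have hJpos : 0 < J R := integral_K_Icc_pos hR
    have hl : (0 : ℝ) < R ^ 2 := by positivity
    have hd : (0 : ℝ) < 1 / R := by positivity
    have hld : R ^ 2 * (1 / R) = R := by field_simp
    have hT := tendsto_bK (A := A) hbm hb0 hbM hl (hconv _ hl)
    -- multiply by the constant
    have hT2 := hT.const_mul (Real.exp (2 / R) * R ^ 2 / J R)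
    have e1 : Real.exp (2 / R) * R ^ 2 / J R * (A * ((R ^ 2)⁻¹ * c))
        = Real.exp (2 / R) * (A * c / J R) := by
      field_simp
    rw [e1] at hT2
    have hev := (hT2.eventually (gt_mem_nhds ha)).and (eventually_gt_atTop (1 / R))
    have hev2 := (tendsto_atTop_add_const_right atTop (1 / R) tendsto_id).eventually hev
    filter_upwards [hev2, eventually_ge_atTop 0] with x hx hx0
    simp only [id] at hx
    obtain ⟨h1, h2⟩ := hx
    have h3 := upper_bound hbm hb0 hbM hmono hl hd h2
    rw [hld, add_sub_cancel_right] at h3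
    refine lt_of_le_of_lt ?_ h1
    have h4 : Real.exp (-(2 * (1 / R))) = (Real.exp (2 / R))⁻¹ := by
      rw [← Real.exp_neg]; congr 1; ring
    rw [h4] at h3
    have h5 := mul_le_mul_of_nonneg_left h3
      (show 0 ≤ Real.exp (2 / R) * R ^ 2 / J R by positivity)
    refine le_trans (le_of_eq ?_) h5
    have hE : Real.exp (2 / R) ≠ 0 := (Real.exp_pos _).ne'
    have hJ0 : (∫ u in Icc (-R) R, K u) ≠ 0 := hJpos.ne'
    simp only [hJ]
    field_simp
  have hlower : ∀ R : ℝ, 0 < R →
      ∀ a : ℝ, a < Real.exp (-(2 / R)) * ((A * c - M * (c - J R)) / J R) →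
        ∀ᶠ x in atTop, a < b x := by
    intro R hR a ha
    have hJpos : 0 < J R := integral_K_Icc_pos hR
    have hl : (0 : ℝ) < R ^ 2 := by positivity
    have hd : (0 : ℝ) < 1 / R := by positivity
    have hld : R ^ 2 * (1 / R) = R := by field_simp
    have hT := tendsto_bK (A := A) hbm hb0 hbM hl (hconv _ hl)
    have hT2 := (hT.sub_const (M * ((R ^ 2)⁻¹ * (c - J R)))).const_mul
      (Real.exp (-(2 / R)) * R ^ 2 / J R)
    have e1 : Real.exp (-(2 / R)) * R ^ 2 / J R *
        (A * ((R ^ 2)⁻¹ * c) - M * ((R ^ 2)⁻¹ * (c - J R)))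
        = Real.exp (-(2 / R)) * ((A * c - M * (c - J R)) / J R) := by
      field_simp
    rw [e1] at hT2
    have hev := (hT2.eventually (lt_mem_nhds ha)).and (eventually_gt_atTop (1 / R))
    have hev2 := (tendsto_atTop_add_const_right atTop (-(1 / R)) tendsto_id).eventually hev
    filter_upwards [hev2, eventually_ge_atTop 0] with x hx hx0
    simp only [id] at hx
    obtain ⟨h1, h2⟩ := hx
    have h3 := lower_bound hbm hb0 hbM hmono hl hd h2
    rw [hld, neg_add_cancel_right] at h3
    refine lt_of_lt_of_le h1 ?_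
    have h4 : Real.exp (2 * (1 / R)) = Real.exp (2 / R) := by
      congr 1; ring
    rw [h4] at h3
    have h6 : (∫ t in Ioi (0 : ℝ), b t * K (R ^ 2 * (x + -(1 / R) - t)))
        - M * ((R ^ 2)⁻¹ * (c - J R)) ≤ b x * Real.exp (2 / R) * ((R ^ 2)⁻¹ * J R) := by
      linarith
    have h5 := mul_le_mul_of_nonneg_left h6
      (show 0 ≤ Real.exp (-(2 / R)) * R ^ 2 / J R by positivity)
    refine h5.trans (le_of_eq ?_)
    rw [Real.exp_neg]
    have hE : Real.exp (2 / R) ≠ 0 := (Real.exp_pos _).ne'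
    field_simp
  -- limits as R → ∞
  have hexp1 : Tendsto (fun R : ℝ => Real.exp (2 / R)) atTop (𝓝 1) := by
    have h : Tendsto (fun R : ℝ => 2 / R) atTop (𝓝 0) := tendsto_const_nhds.div_atTop tendsto_id
    have := (Real.continuous_exp.tendsto 0).comp h
    simpa [Function.comp_def] using this
  have hexp2 : Tendsto (fun R : ℝ => Real.exp (-(2 / R))) atTop (𝓝 1) := by
    have h : Tendsto (fun R : ℝ => 2 / R) atTop (𝓝 0) := tendsto_const_nhds.div_atTop tendsto_id
    have := (Real.continuous_exp.tendsto _).comp h.neg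
    simpa [Function.comp_def] using this
  have hlim1 : Tendsto (fun R : ℝ => Real.exp (2 / R) * (A * c / J R)) atTop (𝓝 A) := by
    have h := hexp1.mul ((tendsto_const_nhds (x := A * c)).div hJlim hcpos.ne')
    rwa [one_mul, mul_div_cancel_right₀ _ hcpos.ne'] at h
  have hlim2 : Tendsto (fun R : ℝ => Real.exp (-(2 / R)) * ((A * c - M * (c - J R)) / J R))
      atTop (𝓝 A) := by
    have h := hexp2.mul (((tendsto_const_nhds (x := A * c)).sub
      ((hJlim.const_sub c).const_mul M)).div hJlim hcpos.ne')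
    rwa [one_mul, sub_self, mul_zero, sub_zero, mul_div_cancel_right₀ _ hcpos.ne'] at h
  rw [tendsto_order]
  constructor
  · intro a ha
    obtain ⟨R, hR1, hR2⟩ := ((hlim2.eventually (lt_mem_nhds ha)).and
      (eventually_gt_atTop 0)).exists
    exact hlower R hR2 a hR1
  · intro a ha
    obtain ⟨R, hR1, hR2⟩ := ((hlim1.eventually (gt_mem_nhds ha)).and
      (eventually_gt_atTop 0)).exists
    exact hupper R hR2 a hR1

end main

end Vale.Agent.PNT
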