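import Mathlib

/-!
# The Fejer kernel
-/

open MeasureTheory Filter Topology Complex
open scoped Real

namespace Vale.Agent.PNT

/-- The Fejer kernel `(2 - 2 cos u) / u ^ 2` (with value `0` at `0`). -/
noncomputable def K (u : ℝ) : ℝ := (2 - 2 * Real.cos u) / u ^ 2

theorem K_nonneg (u : ℝ) : 0 ≤ K u := by
  unfold K
  have := Real.cos_le_one u
  apply div_nonneg (by linarith) (sq_nonneg _)

theorem K_neg (u : ℝ) : K (-u) = K u := by
  simp [K]

theorem measurable_K : Measurable K := by
  unfold K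
  fun_prop

theorem K_le (u : ℝ) : K u ≤ 5 * (1 + u ^ 2)⁻¹ := by
  unfold K
  rcases eq_or_ne u 0 with rfl | hu
  · simp
  have hu2 : 0 < u ^ 2 := by positivity
  rw [← div_eq_mul_inv, div_le_div_iff₀ hu2 (by positivity)]
  have h1 : 1 - u ^ 2 / 2 ≤ Real.cos u := Real.one_sub_sq_div_two_le_cos
  have h2 : -1 ≤ Real.cos u := Real.neg_one_le_cos u
  rcases le_total (u ^ 2) 4 with h | h
  · have : 2 - 2 * Real.cos u ≤ u ^ 2 := by linarith
    nlinarith
  · have : 2 - 2 * Real.cos u ≤ 4 := by linarith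
    nlinarith

theorem integrable_K : Integrable K := by
  refine Integrable.mono' (integrable_inv_one_add_sq.const_mul 5)
    measurable_K.aestronglyMeasurable (ae_of_all _ fun u => ?_)
  rw [Real.norm_eq_abs, abs_of_nonneg (K_nonneg u)]
  exact K_le u

theorem K_pos {u : ℝ} (h0 : 0 < u) (h1 : u < 1) : 0 < K u := by
  unfold K
  have hc : Real.cos u < 1 := by
    have : Real.cos u < Real.cos 0 :=
      Real.cos_lt_cos_of_nonneg_of_le_pi_div_two le_rfl
        (by have := Real.pi_gt_three; linarith) h0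
    simpa using this
  apply div_pos (by linarith) (by positivity)

theorem integral_K_Icc_pos {R : ℝ} (hR : 0 < R) : 0 < ∫ u in Set.Icc (-R) R, K u := by
  rw [setIntegral_pos_iff_support_of_nonneg_ae (ae_of_all _ K_nonneg) integrable_K.integrableOn]
  have hsub : Set.Ioo 0 (min R 1) ⊆ Function.support K ∩ Set.Icc (-R) R := by
    intro u hu
    have h1 : u < 1 := lt_of_lt_of_le hu.2 (min_le_right _ _)
    have h2 : u < R := lt_of_lt_of_le hu.2 (min_le_left _ _)
    exact ⟨(K_pos hu.1 h1).ne', by linarith [hu.1], h2.le⟩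
  refine lt_of_lt_of_le ?_ (measure_mono hsub)
  rw [Real.volume_Ioo]
  simp [hR]

theorem integral_K_pos : 0 < ∫ u, K u :=
  lt_of_lt_of_le (integral_K_Icc_pos one_pos)
    (setIntegral_le_integral integrable_K (ae_of_all _ K_nonneg))

theorem tendsto_integral_K_Icc :
    Tendsto (fun R : ℝ => ∫ u in Set.Icc (-R) R, K u) atTop (𝓝 (∫ u, K u)) := by
  have h := (aecover_Icc (μ := (volume : Measure ℝ)) (a := fun R : ℝ => -R) (b := fun R : ℝ => R)
    tendsto_neg_atTop_atBot tendsto_id).integral_tendsto_of_countably_generated integrable_K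
  exact h

/-- The Fourier transform of the triangle function is the Fejer kernel. -/
theorem integral_triangle {u : ℝ} (hu : u ≠ 0) :
    ∫ y in (-1 : ℝ)..1, ((1 - |y| : ℝ) : ℂ) * cexp (I * u * y) = (K u : ℂ) := by
  have huc : (u : ℂ) ≠ 0 := by exact_mod_cast hu
  have hIu : I * (u : ℂ) ≠ 0 := mul_ne_zero I_ne_zero huc
  have hcont : Continuous fun y : ℝ => ((1 - |y| : ℝ) : ℂ) * cexp (I * u * y) := by fun_prop
  rw [← intervalIntegral.integral_add_adjacent_intervals (b := 0)
    (hcont.intervalIntegrable _ _) (hcont.intervalIntegrable _ _)]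
  -- right half
  have hder : ∀ (c : ℂ) (y : ℝ), HasDerivAt
      (fun y : ℝ => (1 + c * y) * cexp (I * u * y) / (I * u) - c * cexp (I * u * y) / (I * u) ^ 2)
      ((1 + c * y) * cexp (I * u * y)) y := by
    intro c y
    have h1 : HasDerivAt (fun y : ℝ => (1 + c * (y : ℂ))) c y := by
      have := ((hasDerivAt_id (y : ℂ)).const_mul c).const_add 1 |>.comp_ofReal
      simpa using this
    have h2 : HasDerivAt (fun y : ℝ => cexp (I * u * (y : ℂ)))
        (cexp (I * u * y) * (I * u)) y := by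
      have h3 : HasDerivAt (fun z : ℂ => I * u * z) (I * u) (y : ℂ) := by
        simpa using (hasDerivAt_id (y : ℂ)).const_mul (I * u)
      exact h3.cexp.comp_ofReal
    have h4 := ((h1.mul h2).div_const (I * u)).sub ((h2.const_mul c).div_const ((I * u) ^ 2))
    refine h4.congr_deriv ?_
    field_simp
    ring
  have hright : ∫ y in (0 : ℝ)..1, ((1 - |y| : ℝ) : ℂ) * cexp (I * u * y)
      = (cexp (I * u) / (I * u) ^ 2) - (1 / (I * u) + 1 / (I * u) ^ 2) := by
    have e1 : ∫ y in (0 : ℝ)..1, ((1 - |y| : ℝ) : ℂ) * cexp (I * u * y)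
        = ∫ y in (0 : ℝ)..1, (1 + (-1 : ℂ) * y) * cexp (I * u * y) := by
      refine intervalIntegral.integral_congr fun y hy => ?_
      rw [Set.uIcc_of_le zero_le_one] at hy
      simp only [abs_of_nonneg hy.1]
      push_cast
      ring
    rw [e1, intervalIntegral.integral_eq_sub_of_hasDerivAt (fun y _ => hder (-1) y)
      ((by fun_prop : Continuous fun y : ℝ => (1 + (-1 : ℂ) * y) * cexp (I * u * y)
        ).intervalIntegrable _ _)]
    simp
    ring
  have hleft : ∫ y in (-1 : ℝ)..0, ((1 - |y| : ℝ) : ℂ) * cexp (I * u * y)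
      = (1 / (I * u) - 1 / (I * u) ^ 2) + cexp (-(I * u)) / (I * u) ^ 2 := by
    have e1 : ∫ y in (-1 : ℝ)..0, ((1 - |y| : ℝ) : ℂ) * cexp (I * u * y)
        = ∫ y in (-1 : ℝ)..0, (1 + (1 : ℂ) * y) * cexp (I * u * y) := by
      refine intervalIntegral.integral_congr fun y hy => ?_
      rw [Set.uIcc_of_le (by norm_num)] at hy
      simp only [abs_of_nonpos hy.2]
      push_cast
      ring
    rw [e1, intervalIntegral.integral_eq_sub_of_hasDerivAt (fun y _ => hder 1 y)
      ((by fun_prop : Continuous fun y : ℝ => (1 + (1 : ℂ) * y) * cexp (I * u * y)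
        ).intervalIntegrable _ _)]
    simp
  rw [hleft, hright]
  have hI2 : (I * (u : ℂ)) ^ 2 = - (u : ℂ) ^ 2 := by
    rw [mul_pow, I_sq]; ring
  have hcos : cexp (I * u) + cexp (-(I * u)) = 2 * (Real.cos u : ℂ) := by
    rw [Complex.ofReal_cos, Complex.two_cos]
    congr 1 <;> congr 1 <;> ring
  have : (K u : ℂ) = (2 - (cexp (I * u) + cexp (-(I * u)))) / (u : ℂ) ^ 2 := by
    rw [hcos]; simp [K]
  rw [this, hI2]
  field_simp
  ring

end Vale.Agent.PNT
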