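import Vale.Agent.Lib.PNT.Kernel

/-!
# Convolution of a bounded function with the Fejer kernel
-/

open MeasureTheory Filter Topology Complex Set
open scoped Real

namespace Vale.Agent.PNT

variable {β : ℝ → ℝ} {M : ℝ} {G : ℂ → ℂ}

theorem nonneg_of_bound (hM : ∀ t, 0 ≤ t → |β t| ≤ M) : 0 ≤ M :=
  (abs_nonneg _).trans (hM 0 le_rfl)

/-- The Fourier identity with damping `ε > 0`. -/
theorem fourier_identity (hβm : Measurable β) (hM : ∀ t, 0 ≤ t → |β t| ≤ M)
    (h : ∀ z : ℂ, 0 < z.re → ∫ t in Ioi (0 : ℝ), (β t : ℂ) * cexp (-z * t) = G z)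
    (l x : ℝ) (hl : 0 < l) {ε : ℝ} (hε : 0 < ε) :
    ∫ y in (-1 : ℝ)..1, ((1 - |y| : ℝ) : ℂ) * cexp (I * (l * x : ℝ) * y) * G (ε + I * (l * y : ℝ))
      = ∫ t in Ioi (0 : ℝ), ((β t * Real.exp (-ε * t) * K (l * (x - t)) : ℝ) : ℂ) := by
  have hM0 : 0 ≤ M := nonneg_of_bound hM
  -- rewrite the integrand
  have e1 : ∀ y : ℝ, ((1 - |y| : ℝ) : ℂ) * cexp (I * (l * x : ℝ) * y) * G (ε + I * (l * y : ℝ))
      = ∫ t in Ioi (0 : ℝ), ((β t * Real.exp (-ε * t) : ℝ) : ℂ) *
          (((1 - |y| : ℝ) : ℂ) * cexp (I * (l * (x - t) : ℝ) * y)) := by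
    intro y
    rw [← h _ (by simp [hε]), ← integral_const_mul]
    refine integral_congr_ae (ae_of_all _ fun t => ?_)
    simp only
    push_cast
    have : cexp (-(↑ε + I * (↑l * ↑y)) * ↑t)
        = cexp (-↑ε * ↑t) * cexp (-(I * (↑l * ↑y)) * ↑t) := by
      rw [← Complex.exp_add]; congr 1; ring
    rw [this]
    have h2 : cexp (I * (↑l * (↑x - ↑t)) * ↑y)
        = cexp (I * (↑l * ↑x) * ↑y) * cexp (-(I * (↑l * ↑y)) * ↑t) := by
      rw [← Complex.exp_add]; congr 1; ring
    rw [h2]
    ring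
  simp_rw [e1]
  rw [intervalIntegral.integral_of_le (by norm_num : (-1 : ℝ) ≤ 1)]
  rw [integral_integral_swap]
  · refine integral_congr_ae ?_
    have hne : ∀ᵐ t : ℝ, t ≠ x := by
      simp [ae_iff, measure_singleton]
    filter_upwards [ae_restrict_of_ae hne] with t ht
    have hu : l * (x - t) ≠ 0 := mul_ne_zero hl.ne' (sub_ne_zero.2 (Ne.symm ht))
    rw [integral_const_mul, ← intervalIntegral.integral_of_le (by norm_num : (-1 : ℝ) ≤ 1),
      integral_triangle hu]
    push_cast
    ring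
  · -- integrability on the product
    have hint : Integrable (fun t : ℝ => M * Real.exp (-ε * t)) (volume.restrict (Ioi 0)) := by
      refine Integrable.const_mul ?_ M
      have := integrableOn_exp_mul_Ioi (a := -ε) (by linarith) 0
      exact this
    have hone : Integrable (fun _ : ℝ => (1 : ℝ)) (volume.restrict (Ioc (-1 : ℝ) 1)) :=
      integrable_const _
    refine Integrable.mono' (hone.mul_prod hint) ?_ ?_
    · apply Measurable.aestronglyMeasurable
      have : Measurable fun p : ℝ × ℝ => β p.2 := hβm.comp measurable_snd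
      simp only [Function.uncurry_def]
      fun_prop
    · have hae : ∀ᵐ p : ℝ × ℝ ∂(volume.restrict (Ioc (-1 : ℝ) 1)).prod (volume.restrict (Ioi 0)),
          p ∈ Ioc (-1 : ℝ) 1 ×ˢ Ioi (0 : ℝ) := by
        rw [Measure.prod_restrict]
        exact ae_restrict_mem (measurableSet_Ioc.prod measurableSet_Ioi)
      filter_upwards [hae] with p hp
      obtain ⟨y, t⟩ := p
      obtain ⟨hy, ht⟩ := hp
      simp only [Set.mem_Ioc] at hy
      simp only [Set.mem_Ioi] at ht
      simp only [Function.uncurry]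
      rw [norm_mul, norm_mul]
      have hnorm : ‖cexp (I * ((l * (x - t) : ℝ) : ℂ) * (y : ℂ))‖ = 1 := by
        have : I * ((l * (x - t) : ℝ) : ℂ) * (y : ℂ) = ((l * (x - t) * y : ℝ) : ℂ) * I := by
          push_cast; ring
        rw [this, Complex.norm_exp_ofReal_mul_I]
      rw [hnorm, mul_one, Complex.norm_real, Complex.norm_real, Real.norm_eq_abs,
        Real.norm_eq_abs, abs_mul, abs_of_pos (Real.exp_pos _)]
      have h1 : |(1 - |y|)| ≤ 1 := by
        have : |y| ≤ 1 := abs_le.2 ⟨hy.1.le, hy.2⟩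
        rw [abs_of_nonneg (by linarith)]
        linarith [abs_nonneg y]
      have h2 : |β t| * Real.exp (-ε * t) ≤ M * Real.exp (-ε * t) :=
        mul_le_mul_of_nonneg_right (hM t ht.le) (Real.exp_pos _).le
      calc |β t| * Real.exp (-ε * t) * |(1 - |y|)|
          ≤ M * Real.exp (-ε * t) * 1 :=
            mul_le_mul h2 h1 (abs_nonneg _) (by positivity)
        _ = 1 * (M * Real.exp (-ε * t)) := by ring

theorem integrable_K_shift (l x : ℝ) (hl : 0 < l) : Integrable fun t : ℝ => K (l * (x - t)) := by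
  have h1 : Integrable fun t : ℝ => K (l * t) := integrable_K.comp_mul_left' hl.ne'
  exact h1.comp_sub_left x

/-- The Fourier identity without damping. -/
theorem fourier_identity_zero (hβm : Measurable β) (hM : ∀ t, 0 ≤ t → |β t| ≤ M)
    (hG : ContinuousOn G {z | 0 ≤ z.re})
    (h : ∀ z : ℂ, 0 < z.re → ∫ t in Ioi (0 : ℝ), (β t : ℂ) * cexp (-z * t) = G z)
    (l x : ℝ) (hl : 0 < l) :
    ∫ y in (-1 : ℝ)..1, ((1 - |y| : ℝ) : ℂ) * cexp (I * (l * x : ℝ) * y) * G (I * (l * y : ℝ))
      = ∫ t in Ioi (0 : ℝ), ((β t * K (l * (x - t)) : ℝ) : ℂ) := by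
  have hM0 : 0 ≤ M := nonneg_of_bound hM
  set e : ℕ → ℝ := fun n => 1 / ((n : ℝ) + 1) with he
  have he0 : ∀ n, 0 < e n := fun n => by positivity
  have he1 : ∀ n, e n ≤ 1 := fun n => by
    rw [he]
    simp only
    rw [div_le_one (by positivity)]
    have : (0 : ℝ) ≤ n := by positivity
    linarith
  have helim : Tendsto e atTop (𝓝 0) := tendsto_one_div_add_atTop_nhds_zero_nat
  -- compact set on which G is bounded
  set Q : Set ℂ := (fun p : ℝ × ℝ => (p.1 : ℂ) + I * (l * p.2 : ℝ)) '' (Icc 0 1 ×ˢ Icc (-1) 1)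
    with hQ
  have hQc : IsCompact Q := by
    apply IsCompact.image (isCompact_Icc.prod isCompact_Icc)
    fun_prop
  have hQsub : Q ⊆ {z : ℂ | 0 ≤ z.re} := by
    rintro z ⟨p, hp, rfl⟩
    have := hp.1.1
    simpa using this
  obtain ⟨C, hC⟩ := hQc.exists_bound_of_continuousOn (hG.mono hQsub)
  have hL : Tendsto (fun n => ∫ y in (-1 : ℝ)..1,
      ((1 - |y| : ℝ) : ℂ) * cexp (I * (l * x : ℝ) * y) * G ((e n : ℂ) + I * (l * y : ℝ))) atTop
      (𝓝 (∫ y in (-1 : ℝ)..1,
        ((1 - |y| : ℝ) : ℂ) * cexp (I * (l * x : ℝ) * y) * G (I * (l * y : ℝ)))) := by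
    refine intervalIntegral.tendsto_integral_filter_of_dominated_convergence (fun _ => C) ?_ ?_ ?_ ?_
    · refine Eventually.of_forall fun n => ?_
      apply ContinuousOn.aestronglyMeasurable _ measurableSet_uIoc
      apply ContinuousOn.mul
      · exact Continuous.continuousOn (by fun_prop)
      · refine hG.comp (Continuous.continuousOn (by fun_prop)) fun y _ => ?_
        simpa using (he0 n).le
    · refine Eventually.of_forall fun n => ae_of_all _ fun y hy => ?_
      rw [uIoc_of_le (by norm_num)] at hy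
      have hy' : y ∈ Icc (-1 : ℝ) 1 := ⟨hy.1.le, hy.2⟩
      have h1 : ‖G ((e n : ℂ) + I * (l * y : ℝ))‖ ≤ C :=
        hC _ ⟨(e n, y), ⟨⟨(he0 n).le, he1 n⟩, hy'⟩, rfl⟩
      have hnorm : ‖cexp (I * ((l * x : ℝ) : ℂ) * (y : ℂ))‖ = 1 := by
        have : I * ((l * x : ℝ) : ℂ) * (y : ℂ) = ((l * x * y : ℝ) : ℂ) * I := by
          push_cast; ring
        rw [this, Complex.norm_exp_ofReal_mul_I]
      rw [norm_mul, norm_mul, hnorm, mul_one, Complex.norm_real, Real.norm_eq_abs]
      have h2 : |(1 - |y|)| ≤ 1 := by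
        have : |y| ≤ 1 := abs_le.2 hy'
        rw [abs_of_nonneg (by linarith)]
        linarith [abs_nonneg y]
      calc |(1 - |y|)| * ‖G ((e n : ℂ) + I * (l * y : ℝ))‖ ≤ 1 * C :=
            mul_le_mul h2 h1 (norm_nonneg _) zero_le_one
        _ = C := one_mul C
    · exact intervalIntegrable_const
    · refine ae_of_all _ fun y hy => ?_
      refine Tendsto.const_mul _ ?_
      have hcw : ContinuousWithinAt G {z | 0 ≤ z.re} (I * (l * y : ℝ)) :=
        hG _ (by simp)
      have h1 : Tendsto (fun n => (e n : ℂ) + I * (l * y : ℝ)) atTop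
          (𝓝[{z | 0 ≤ z.re}] (I * (l * y : ℝ))) := by
        apply tendsto_nhdsWithin_of_tendsto_nhds_of_eventually_within
        · have : Tendsto (fun n => (e n : ℂ)) atTop (𝓝 ((0 : ℝ) : ℂ)) :=
            (Complex.continuous_ofReal.tendsto 0).comp helim
          simpa using this.add_const (I * ((l * y : ℝ) : ℂ))
        · refine Eventually.of_forall fun n => ?_
          simpa using (he0 n).le
      exact hcw.tendsto.comp h1
  have hR : Tendsto (fun n => ∫ t in Ioi (0 : ℝ),
      ((β t * Real.exp (-(e n) * t) * K (l * (x - t)) : ℝ) : ℂ)) atTop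
      (𝓝 (∫ t in Ioi (0 : ℝ), ((β t * K (l * (x - t)) : ℝ) : ℂ))) := by
    have hKint := (integrable_K_shift l x hl).restrict (s := Ioi (0 : ℝ))
    refine tendsto_integral_of_dominated_convergence (fun t => M * K (l * (x - t))) ?_ ?_ ?_ ?_
    · intro n
      apply Measurable.aestronglyMeasurable
      have := measurable_K
      fun_prop
    · exact hKint.const_mul M
    · intro n
      filter_upwards [ae_restrict_mem measurableSet_Ioi] with t ht
      have ht' : (0 : ℝ) < t := ht
      rw [Complex.norm_real, Real.norm_eq_abs, abs_mul, abs_mul, abs_of_pos (Real.exp_pos _),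
        abs_of_nonneg (K_nonneg _)]
      refine mul_le_mul_of_nonneg_right ?_ (K_nonneg _)
      have h1 : Real.exp (-(e n) * t) ≤ 1 := by
        rw [Real.exp_le_one_iff]
        nlinarith [he0 n]
      calc |β t| * Real.exp (-(e n) * t) ≤ M * 1 :=
            mul_le_mul (hM t ht'.le) h1 (Real.exp_pos _).le hM0
        _ = M := mul_one M
    · refine ae_of_all _ fun t => ?_
      have h1 : Tendsto (fun n => β t * Real.exp (-(e n) * t) * K (l * (x - t))) atTop
          (𝓝 (β t * Real.exp (-0 * t) * K (l * (x - t)))) := by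
        refine Tendsto.mul_const _ (Tendsto.const_mul _ ?_)
        exact (Real.continuous_exp.tendsto _).comp ((helim.neg).mul_const t)
      have h2 : β t * Real.exp (-0 * t) * K (l * (x - t)) = β t * K (l * (x - t)) := by simp
      rw [h2] at h1
      exact (Complex.continuous_ofReal.tendsto _).comp h1
  have heq : ∀ n, ∫ y in (-1 : ℝ)..1,
      ((1 - |y| : ℝ) : ℂ) * cexp (I * (l * x : ℝ) * y) * G ((e n : ℂ) + I * (l * y : ℝ))
      = ∫ t in Ioi (0 : ℝ), ((β t * Real.exp (-(e n) * t) * K (l * (x - t)) : ℝ) : ℂ) :=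
    fun n => fourier_identity hβm hM h l x hl (he0 n)
  simp_rw [heq] at hL
  exact tendsto_nhds_unique hL hR

theorem tendsto_conv_zero (hβm : Measurable β) (hM : ∀ t, 0 ≤ t → |β t| ≤ M)
    (hG : ContinuousOn G {z | 0 ≤ z.re})
    (h : ∀ z : ℂ, 0 < z.re → ∫ t in Ioi (0 : ℝ), (β t : ℂ) * cexp (-z * t) = G z)
    {l : ℝ} (hl : 0 < l) :
    Tendsto (fun x : ℝ => ∫ t in Ioi (0 : ℝ), β t * K (l * (x - t))) atTop (𝓝 0) := by
  set φ : ℝ → ℂ := indicator (Ioc (-1) 1) fun y => ((1 - |y| : ℝ) : ℂ) * G (I * (l * y : ℝ))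
    with hφ
  have hRL := Real.tendsto_integral_exp_smul_cocompact φ
  have hw : Tendsto (fun x : ℝ => -(l * x / (2 * π))) atTop (cocompact ℝ) := by
    have h1 : Tendsto (fun x : ℝ => l * x / (2 * π)) atTop atTop := by
      apply Tendsto.atTop_div_const (by positivity)
      exact Tendsto.const_mul_atTop hl tendsto_id
    have h2 := tendsto_neg_atTop_atBot.comp h1
    exact h2.mono_right atBot_le_cocompact
  have h3 := hRL.comp hw
  have h4 : ∀ x : ℝ, (∫ v : ℝ, Real.fourierChar (-(v * -(l * x / (2 * π)))) • φ v)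
      = ((∫ t in Ioi (0 : ℝ), β t * K (l * (x - t)) : ℝ) : ℂ) := by
    intro x
    rw [← integral_complex_ofReal, ← fourier_identity_zero hβm hM hG h l x hl,
      intervalIntegral.integral_of_le (by norm_num : (-1 : ℝ) ≤ 1),
      ← integral_indicator measurableSet_Ioc]
    refine integral_congr_ae (ae_of_all _ fun y => ?_)
    simp only [hφ, indicator]
    split_ifs with hy
    · rw [Circle.smul_def, Real.fourierChar_apply]
      have hpi : (π : ℂ) ≠ 0 := by exact_mod_cast Real.pi_ne_zero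
      have : ((2 * π * (-(y * -(l * x / (2 * π)))) : ℝ) : ℂ) * I = I * ((l * x : ℝ) : ℂ) * y := by
        push_cast
        field_simp
      rw [this, smul_eq_mul]
      ring
    · simp
  simp only [Function.comp_def, h4] at h3
  have h5 := (Complex.continuous_re.tendsto 0).comp h3
  simpa [Function.comp_def] using h5

end Vale.Agent.PNT
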