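import Vale.Agent.Lib.PNT.Ikehara

/-!
# The Wiener-Ikehara theorem for Dirichlet series with `O(x)` partial sums
-/

open MeasureTheory Filter Topology Set Complex
open scoped Real

namespace Vale.Agent.PNT

theorem image_exp_Ioi : Real.exp '' Ioi 0 = Ioi 1 := by
  ext y
  simp only [mem_image, mem_Ioi]
  constructor
  · rintro ⟨x, hx, rfl⟩
    exact Real.one_lt_exp_iff.2 hx
  · intro hy
    exact ⟨Real.log y, Real.log_pos hy, Real.exp_log (by linarith)⟩

theorem measurable_sum (f : ℕ → ℝ) :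
    Measurable fun x : ℝ => ∑ k ∈ Finset.Icc 1 ⌊x⌋₊, f k := by
  have h1 : Measurable fun n : ℕ => ∑ k ∈ Finset.Icc 1 n, f k := measurable_from_top
  exact h1.comp Nat.measurable_floor

/-- The Mellin integral of the partial sums as a Laplace integral. -/
theorem laplace_eq (f : ℕ → ℝ) (hf : ∀ n, 0 ≤ f n) {C : ℝ}
    (hC : ∀ x : ℝ, 1 ≤ x → ∑ k ∈ Finset.Icc 1 ⌊x⌋₊, f k ≤ C * x) {z : ℂ} (hz : 0 < z.re) :
    ∫ t in Ioi (0 : ℝ), (((∑ k ∈ Finset.Icc 1 ⌊Real.exp t⌋₊, f k) * Real.exp (-t) : ℝ) : ℂ)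
        * cexp (-z * t)
      = LSeries (fun n => (f n : ℂ)) (z + 1) / (z + 1) := by
  have hs : (1 : ℝ) < (z + 1).re := by simp [hz]
  have hne : z + 1 ≠ 0 := by
    intro h
    rw [h] at hs
    simp at hs
    linarith
  have hO : (fun n : ℕ => ∑ k ∈ Finset.Icc 1 n, f k) =O[atTop] fun n => (n : ℝ) ^ (1 : ℝ) := by
    rw [Asymptotics.isBigO_iff]
    refine ⟨C, ?_⟩
    filter_upwards [eventually_ge_atTop 1] with n hn
    have h1 := hC n (by exact_mod_cast hn)
    rw [Nat.floor_natCast] at h1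
    rw [Real.rpow_one, Real.norm_eq_abs, Real.norm_eq_abs,
      abs_of_nonneg (Finset.sum_nonneg fun k _ => hf k), Nat.abs_cast]
    exact h1
  have h := LSeries_eq_mul_integral_of_nonneg f zero_le_one hs hO hf
  rw [h, mul_div_cancel_left₀ _ hne, ← image_exp_Ioi,
    integral_image_eq_integral_abs_deriv_smul measurableSet_Ioi
      (fun x _ => (Real.hasDerivAt_exp x).hasDerivWithinAt) Real.exp_injective.injOn]
  refine integral_congr_ae (ae_of_all _ fun t => ?_)
  have hpow : ((Real.exp t : ℝ) : ℂ) ^ (-(z + 1 + 1)) = cexp (-z * t) * cexp (-(2 * t)) := by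
    rw [Complex.cpow_def_of_ne_zero (by exact_mod_cast (Real.exp_pos t).ne'),
      ← Complex.ofReal_log (Real.exp_pos t).le, Real.log_exp, ← Complex.exp_add]
    congr 1
    ring
  have hexp : (Real.exp (-t) : ℂ) = (Real.exp t : ℂ) * cexp (-(2 * t)) := by
    push_cast
    rw [← Complex.exp_add]
    congr 1
    ring
  simp only
  rw [abs_of_pos (Real.exp_pos t), hpow, Complex.real_smul]
  push_cast at hexp ⊢
  rw [hexp]
  ring

/-- The Wiener-Ikehara theorem for nonnegative coefficients with partial sums `O(x)`. -/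
theorem wiener_ikehara (f : ℕ → ℝ) (hf : ∀ n, 0 ≤ f n) {C : ℝ}
    (hC : ∀ x : ℝ, 1 ≤ x → ∑ k ∈ Finset.Icc 1 ⌊x⌋₊, f k ≤ C * x) {A : ℝ} {H : ℂ → ℂ}
    (hH : ContinuousOn H {s | 1 ≤ s.re})
    (hL : ∀ s : ℂ, 1 < s.re → LSeries (fun n => (f n : ℂ)) s = H s + A / (s - 1)) :
    Tendsto (fun x : ℝ => (∑ k ∈ Finset.Icc 1 ⌊x⌋₊, f k) / x) atTop (𝓝 A) := by
  set S : ℝ → ℝ := fun x => ∑ k ∈ Finset.Icc 1 ⌊x⌋₊, f k with hS
  have hSm : Measurable S := measurable_sum f
  have hS0 : ∀ x, 0 ≤ S x := fun x => Finset.sum_nonneg fun k _ => hf k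
  have hSmono : Monotone S := by
    intro x y hxy
    exact Finset.sum_le_sum_of_subset_of_nonneg
      (Finset.Icc_subset_Icc_right (Nat.floor_mono hxy)) fun k _ _ => hf k
  set b : ℝ → ℝ := fun t => S (Real.exp t) * Real.exp (-t) with hb
  have hbm : Measurable b := by
    have : Measurable fun t : ℝ => S (Real.exp t) := hSm.comp Real.measurable_exp
    fun_prop
  have hb0 : ∀ t, 0 ≤ t → 0 ≤ b t := fun t _ => mul_nonneg (hS0 _) (Real.exp_pos _).le
  have hbM : ∀ t, 0 ≤ t → b t ≤ C := by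
    intro t ht
    have h1 := hC (Real.exp t) (Real.one_le_exp_iff.2 ht)
    simp only [hb]
    rw [Real.exp_neg, ← div_eq_mul_inv, div_le_iff₀ (Real.exp_pos t)]
    exact h1
  have hbe : ∀ t, b t * Real.exp t = S (Real.exp t) := by
    intro t
    simp only [hb]
    rw [mul_assoc, ← Real.exp_add]
    simp
  have hmono : ∀ s t, 0 ≤ s → s ≤ t → b s * Real.exp s ≤ b t * Real.exp t := by
    intro s t _ hst
    rw [hbe, hbe]
    exact hSmono (Real.exp_le_exp.2 hst)
  -- the transform
  set G : ℂ → ℂ := fun z => (H (z + 1) - A) / (z + 1) with hG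
  have hGc : ContinuousOn G {z | 0 ≤ z.re} := by
    apply ContinuousOn.div
    · refine ContinuousOn.sub ?_ continuousOn_const
      refine hH.comp (by fun_prop) fun z hz => ?_
      have hz' : 0 ≤ z.re := hz
      simp [hz']
    · fun_prop
    · intro z hz h
      have hz' : 0 ≤ z.re := hz
      have := congrArg Complex.re h
      simp at this
      linarith
  have hint : ∀ z : ℂ, 0 < z.re →
      ∫ t in Ioi (0 : ℝ), ((b t - A : ℝ) : ℂ) * cexp (-z * t) = G z := by
    intro z hz
    have hz0 : z ≠ 0 := fun h => by rw [h] at hz; simp at hz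
    have hz1 : z + 1 ≠ 0 := by
      intro h
      have := congrArg Complex.re h
      simp at this
      linarith
    have hnorm : ∀ t : ℝ, ‖cexp (-z * t)‖ = Real.exp (-z.re * t) := by
      intro t
      rw [Complex.norm_exp]
      simp
    have hexpint : Integrable (fun t : ℝ => cexp (-z * t)) (volume.restrict (Ioi 0)) := by
      have h1 : Integrable (fun t : ℝ => Real.exp (-z.re * t)) (volume.restrict (Ioi 0)) :=
        integrableOn_exp_mul_Ioi (a := -z.re) (by linarith) 0
      refine Integrable.mono' h1 (by fun_prop) (ae_of_all _ fun t => ?_)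
      rw [hnorm]
    have hbint : Integrable (fun t : ℝ => ((b t : ℝ) : ℂ) * cexp (-z * t))
        (volume.restrict (Ioi 0)) := by
      refine Integrable.bdd_mul (c := C) hexpint ?_ ?_
      · exact (Complex.measurable_ofReal.comp hbm).aestronglyMeasurable
      · filter_upwards [ae_restrict_mem measurableSet_Ioi] with t ht
        have ht' : (0 : ℝ) < t := ht
        rw [Complex.norm_real, Real.norm_eq_abs, abs_of_nonneg (hb0 t ht'.le)]
        exact hbM t ht'.le
    have e1 : ∫ t in Ioi (0 : ℝ), ((b t - A : ℝ) : ℂ) * cexp (-z * t)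
        = (∫ t in Ioi (0 : ℝ), ((b t : ℝ) : ℂ) * cexp (-z * t))
          - A * ∫ t in Ioi (0 : ℝ), cexp (-z * t) := by
      rw [← integral_const_mul, ← integral_sub hbint (hexpint.const_mul _)]
      refine integral_congr_ae (ae_of_all _ fun t => ?_)
      simp only
      push_cast
      ring
    have e2 : ∫ t in Ioi (0 : ℝ), cexp (-z * t) = 1 / z := by
      have := integral_exp_mul_complex_Ioi (a := -z) (by simpa using hz) 0
      rw [this]
      simp
    have e3 := laplace_eq f hf hC hz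
    have e4 := hL (z + 1) (by simp [hz])
    rw [e1, e2]
    have e5 : ∫ t in Ioi (0 : ℝ), ((b t : ℝ) : ℂ) * cexp (-z * t)
        = LSeries (fun n => (f n : ℂ)) (z + 1) / (z + 1) := e3
    rw [e5, e4, hG]
    simp only [add_sub_cancel_right]
    field_simp
    ring
  have hβm : Measurable fun t => b t - A := hbm.sub_const A
  have hβM : ∀ t, 0 ≤ t → |b t - A| ≤ C + |A| := by
    intro t ht
    have h1 := hb0 t ht
    have h2 := hbM t ht
    calc |b t - A| ≤ |b t| + |A| := abs_sub _ _
      _ ≤ C + |A| := by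
        rw [abs_of_nonneg h1]
        linarith
  have hlim : Tendsto b atTop (𝓝 A) :=
    tendsto_of_conv hbm hb0 hbM hmono fun l hl =>
      tendsto_conv_zero (β := fun t => b t - A) hβm hβM hGc hint hl
  have hlog := hlim.comp Real.tendsto_log_atTop
  refine hlog.congr' ?_
  filter_upwards [eventually_gt_atTop 0] with x hx
  simp only [Function.comp, hb]
  rw [Real.exp_log hx, Real.exp_neg, Real.exp_log hx, div_eq_mul_inv]

end Vale.Agent.PNT
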